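import Vale.Agent.H16.SG.Main
import Vale.Agent.H16.SG.Haar

/-!
# P166: the expected pressure of orthogonally invariant Ising spin glasses
-/

namespace Vale.Agent.Results.P166.Universality

open MeasureTheory Filter Topology Vale.Agent.P166

/-- (0) Haar distributed orthogonal matrices exist for every size.
(1) For every `β ≥ 0` and every `μ`, the difference of the expected pressures of any two admissible
eigenvalue sequences with limit `μ` tends to `0`; so convergence and limit depend only on `(β, μ)`.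
(2) If `μ k → μ` weakly together with the edges of the supports, and the expected pressure converges
to `q k` for one admissible sequence with limit `μ k`, for every `k`, then for every admissible
sequence with limit `μ` the expected pressure converges, and the limit is `lim q k`. -/
theorem result :
    (∀ N : ℕ, ∃ (Ω : Type) (_ : MeasurableSpace Ω) (P : Measure Ω)
      (U : Ω → Matrix (Fin N) (Fin N) ℝ), IsProbabilityMeasure P ∧ IsHaar P U) ∧
    ∀ (Ω : ℕ → Type) [∀ N, MeasurableSpace (Ω N)] (P : ∀ N, Measure (Ω N))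
      [∀ N, IsProbabilityMeasure (P N)] (U : ∀ N, Ω N → Matrix (Fin N) (Fin N) ℝ),
      (∀ N, IsHaar (P N) (U N)) → ∀ β : ℝ, 0 ≤ β → ∀ (μ : Measure ℝ) [IsProbabilityMeasure μ],
      (∀ lam lam' : ∀ N : ℕ, Fin N → ℝ, Admissible μ lam → Admissible μ lam' →
        Tendsto (fun N => EP P U β lam N - EP P U β lam' N) atTop (𝓝 0)) ∧
      ∀ (ν : ℕ → Measure ℝ) [∀ k, IsProbabilityMeasure (ν k)],
        (∀ f : ℝ → ℝ, Continuous f → (∃ C, ∀ x, |f x| ≤ C) →
          Tendsto (fun k => ∫ x, f x ∂(ν k)) atTop (𝓝 (∫ x, f x ∂μ))) →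
        ∀ (a b : ℝ) (ak bk : ℕ → ℝ), IsLeast (supp μ) a → IsGreatest (supp μ) b →
          (∀ k, IsLeast (supp (ν k)) (ak k)) → (∀ k, IsGreatest (supp (ν k)) (bk k)) →
          Tendsto ak atTop (𝓝 a) → Tendsto bk atTop (𝓝 b) →
        ∀ q : ℕ → ℝ, (∀ k, ∃ lam, Admissible (ν k) lam ∧
          Tendsto (EP P U β lam) atTop (𝓝 (q k))) →
        ∃ p, ∀ lam, Admissible μ lam →
          Tendsto (EP P U β lam) atTop (𝓝 p) ∧ Tendsto q atTop (𝓝 p) := by
  refine ⟨exists_haar, fun Ω _ P _ U hU β hβ μ _ => ⟨?_, ?_⟩⟩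
  · intro lam lam' h h'
    exact universality hU hβ μ lam lam' h h'
  · intro ν _ hw a b ak bk ha hb hak hbk hat hbt q hq
    exact closedness hU hβ μ ν hw a b ak bk ha hb hak hbk hat hbt q hq

end Vale.Agent.Results.P166.Universality
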